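import Mathlib.Data.ZMod.Basic
import Mathlib.RingTheory.Ideal.Maps
import Mathlib.RingTheory.Ideal.Operations
import Mathlib.RingTheory.PrincipalIdealDomain
import Mathlib.Order.Hom.Basic
import Mathlib.Algebra.Field.ZMod
import Mathlib.Algebra.EuclideanDomain.Int

/-!
Nets of ideals over a field are preorders; nets of ideals over `ZMod (p ^ k)` are the distance
functions with values at most `k`, in the reversed order.
-/

namespace Vale.Agent.P183.H840

/-- A net of ideals of `R` on `X`. -/
def IsNet {X R : Type} [CommRing R] (s : X → X → Ideal R) : Prop :=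
  (∀ x, s x x = ⊤) ∧ ∀ x y z, s x y * s y z ≤ s x z

/-- The preorders on `X`, as relations. -/
def IsPre {X : Type} (r : X → X → Prop) : Prop :=
  (∀ x, r x x) ∧ ∀ x y z, r x y → r y z → r x z

/-- Distance functions with values at most `k`. -/
def IsDist {X : Type} (k : ℕ) (d : X → X → Fin (k + 1)) : Prop :=
  (∀ x, d x x = 0) ∧ ∀ x y z, (d x z : ℕ) ≤ d x y + d y z

open Classical in
/-- Nets over a field are preorders. -/
noncomputable def preIso (X F : Type) [Field F] :
    {s : X → X → Ideal F // IsNet s} ≃o {r : X → X → Prop // IsPre r} where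
  toFun s := ⟨fun x y => s.1 x y = ⊤, fun x => s.2.1 x, fun x y z h1 h2 => by
    have := s.2.2 x y z
    rw [h1, h2, Ideal.top_mul] at this
    exact top_le_iff.1 this⟩
  invFun r := ⟨fun x y => if r.1 x y then ⊤ else ⊥, fun x => if_pos (r.2.1 x), fun x y z => by
    by_cases h1 : r.1 x y
    · by_cases h2 : r.1 y z
      · simp [r.2.2 x y z h1 h2]
      · simp [h2]
    · simp [h1]⟩
  left_inv s := by
    apply Subtype.ext
    funext x y
    change (if s.1 x y = ⊤ then (⊤ : Ideal F) else ⊥) = s.1 x y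
    rcases Ideal.eq_bot_or_top (s.1 x y) with h | h
    · rw [h]; simp
    · rw [h]; simp
  right_inv r := by
    apply Subtype.ext
    funext x y
    change ((if r.1 x y then (⊤ : Ideal F) else ⊥) = ⊤) = r.1 x y
    by_cases h : r.1 x y <;> simp [h]
  map_rel_iff' := by
    intro s t
    constructor
    · intro h x y
      rcases Ideal.eq_bot_or_top (s.1 x y) with h1 | h1
      · rw [h1]; exact bot_le
      · have : t.1 x y = ⊤ := h x y h1
        rw [this]; exact le_top
    · intro h x y h1
      have h1' : s.1 x y = ⊤ := h1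
      have : s.1 x y ≤ t.1 x y := h x y
      rw [h1'] at this
      exact top_le_iff.1 this

section ZM

variable {p : ℕ} (hp : p.Prime) (k : ℕ)

/-- The ideal generated by `p ^ i`. -/
def pid (p k i : ℕ) : Ideal (ZMod (p ^ k)) := Ideal.span {((p : ZMod (p ^ k)) ^ i)}

include hp in
theorem dvd_of_cast {a b : ℕ} (ha : a ≤ k) (h : ((p : ZMod (p ^ k)) ^ a) ∣ (p : ZMod (p ^ k)) ^ b) :
    a ≤ b := by
  obtain ⟨c, hc⟩ := h
  obtain ⟨m, rfl⟩ := ZMod.intCast_surjective c
  have h1 : (((p : ℤ) ^ b : ℤ) : ZMod (p ^ k)) = (((p : ℤ) ^ a * m : ℤ) : ZMod (p ^ k)) := by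
    push_cast
    exact hc
  rw [ZMod.intCast_eq_intCast_iff_dvd_sub] at h1
  have h2 : ((p : ℤ) ^ a) ∣ (p : ℤ) ^ b := by
    have h3 : ((p : ℤ) ^ a) ∣ ((p ^ k : ℕ) : ℤ) := by
      push_cast
      exact pow_dvd_pow _ ha
    have h4 : ((p : ℤ) ^ a) ∣ (p : ℤ) ^ a * m - (p : ℤ) ^ b := h3.trans h1
    have h5 : ((p : ℤ) ^ a) ∣ (p : ℤ) ^ a * m := Dvd.intro _ rfl
    exact (dvd_sub_right h5).1 h4
  have h6 : p ^ a ∣ p ^ b := by exact_mod_cast h2
  exact (Nat.pow_dvd_pow_iff_le_right hp.one_lt).1 h6

include hp in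
theorem pid_le {a b : ℕ} (ha : a ≤ k) : pid p k b ≤ pid p k a ↔ a ≤ b := by
  unfold pid
  rw [Ideal.span_singleton_le_span_singleton]
  exact ⟨dvd_of_cast hp k ha, fun h => pow_dvd_pow _ h⟩

include hp in
theorem exists_pid (I : Ideal (ZMod (p ^ k))) : ∃ i : Fin (k + 1), pid p k i = I := by
  let f : ℤ →+* ZMod (p ^ k) := Int.castRingHom _
  have hf : Function.Surjective f := ZMod.intCast_surjective
  have h1 : I = Ideal.map f (Ideal.comap f I) := (Ideal.map_comap_of_surjective f hf I).symm
  obtain ⟨g, hg⟩ := (IsPrincipalIdealRing.principal (Ideal.comap f I)).principal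
  have hmem : ((p ^ k : ℕ) : ℤ) ∈ Ideal.comap f I := by
    rw [Ideal.mem_comap]
    have : f ((p ^ k : ℕ) : ℤ) = 0 := by
      change (((p ^ k : ℕ) : ℤ) : ZMod (p ^ k)) = 0
      rw [Int.cast_natCast, ZMod.natCast_self]
    rw [this]
    exact I.zero_mem
  rw [hg] at hmem
  have h2 : g ∣ ((p ^ k : ℕ) : ℤ) := Ideal.mem_span_singleton.1 hmem
  have h3 : g.natAbs ∣ p ^ k := by
    have := Int.natAbs_dvd_natAbs.2 h2
    simpa using this
  obtain ⟨i, hi, hgi⟩ := (Nat.dvd_prime_pow hp).1 h3
  refine ⟨⟨i, Nat.lt_succ_of_le hi⟩, ?_⟩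
  rw [h1, hg]
  change _ = Ideal.map f (Ideal.span {g})
  rw [Ideal.map_span, Set.image_singleton]
  unfold pid
  have h4 : Associated ((p : ℤ) ^ i) g := by
    rw [Int.associated_iff_natAbs, hgi]
    simp [Int.natAbs_pow]
  have h5 := h4.map f
  have h6 : f ((p : ℤ) ^ i) = (p : ZMod (p ^ k)) ^ i := by
    rw [map_pow]
    congr 1
    change (((p : ℤ)) : ZMod (p ^ k)) = _
    simp
  rw [h6] at h5
  exact le_antisymm (Ideal.span_singleton_le_span_singleton.2 h5.symm.dvd)
    (Ideal.span_singleton_le_span_singleton.2 h5.dvd)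

include hp in
theorem pid_mul (a b c : ℕ) (hc : c ≤ k) :
    pid p k a * pid p k b ≤ pid p k c ↔ c ≤ a + b := by
  have : pid p k a * pid p k b = pid p k (a + b) := by
    unfold pid
    rw [Ideal.span_singleton_mul_span_singleton, pow_add]
  rw [this]
  exact pid_le hp k hc

theorem pid_zero : pid p k 0 = ⊤ := by
  unfold pid
  simp

/-- The exponent of an ideal. -/
noncomputable def expo (I : Ideal (ZMod (p ^ k))) : Fin (k + 1) := (exists_pid hp k I).choose

theorem pid_expo (I : Ideal (ZMod (p ^ k))) : pid p k (expo hp k I) = I :=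
  (exists_pid hp k I).choose_spec

theorem expo_pid (i : Fin (k + 1)) : expo hp k (pid p k i) = i := by
  apply le_antisymm
  · have h : pid p k i ≤ pid p k (expo hp k (pid p k i)) := (pid_expo hp k _).ge
    exact (pid_le hp k (Nat.le_of_lt_succ (expo hp k (pid p k i)).2)).1 h
  · have h : pid p k (expo hp k (pid p k i)) ≤ pid p k i := (pid_expo hp k _).le
    exact (pid_le hp k (Nat.le_of_lt_succ i.2)).1 h

theorem expo_le (I J : Ideal (ZMod (p ^ k))) : expo hp k J ≤ expo hp k I ↔ I ≤ J := by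
  conv_rhs => rw [← pid_expo hp k I, ← pid_expo hp k J]
  rw [pid_le hp k (Nat.le_of_lt_succ (expo hp k J).2)]
  exact Fin.le_def

/-- Nets over `ZMod (p ^ k)` are distance functions with values at most `k`, in the reversed
order. -/
noncomputable def distIso (X : Type) :
    {s : X → X → Ideal (ZMod (p ^ k)) // IsNet s} ≃o
      {d : X → X → Fin (k + 1) // IsDist k d}ᵒᵈ where
  toFun s := OrderDual.toDual ⟨fun x y => expo hp k (s.1 x y), fun x => by
      change expo hp k (s.1 x x) = 0
      rw [s.2.1 x, ← pid_zero (p := p) k]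
      exact expo_pid hp k 0, fun x y z => by
      have := s.2.2 x y z
      rw [← pid_expo hp k (s.1 x y), ← pid_expo hp k (s.1 y z), ← pid_expo hp k (s.1 x z)] at this
      exact (pid_mul hp k _ _ _ (Nat.le_of_lt_succ (expo hp k (s.1 x z)).2)).1 this⟩
  invFun d := ⟨fun x y => pid p k ((OrderDual.ofDual d).1 x y), fun x => by
      change pid p k ((OrderDual.ofDual d).1 x x) = ⊤
      rw [(OrderDual.ofDual d).2.1 x]
      exact pid_zero k, fun x y z =>
      (pid_mul hp k _ _ _ (Nat.le_of_lt_succ ((OrderDual.ofDual d).1 x z).2)).2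
        ((OrderDual.ofDual d).2.2 x y z)⟩
  left_inv s := by
    apply Subtype.ext
    funext x y
    exact pid_expo hp k _
  right_inv d := by
    apply Subtype.ext
    funext x y
    exact expo_pid hp k _
  map_rel_iff' := by
    intro s t
    constructor
    · intro h x y
      exact (expo_le hp k _ _).1 (h x y)
    · intro h x y
      exact (expo_le hp k _ _).2 (h x y)

end ZM

end Vale.Agent.P183.H840
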